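import Mathlib

/-!
# Augmentation of idempotents over the convolution algebra of summable functions (P089)

The augmentation `a ↦ ∑' x, a x` is multiplicative for convolution, so the augmentation of an
idempotent matrix over the summable functions on a group is an idempotent complex matrix; its
trace is a natural number bounded by the size.  Also: the complement `1 - e` of a summable
convolution idempotent is again one.
-/

namespace Vale.Agent.Lib.P089

open scoped BigOperators

/-- The reindexing `(x, y) ↦ (y, y⁻¹ * x)` of pairs used for convolution sums. -/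
def p089_shear (G : Type*) [Group G] : G × G ≃ G × G where
  toFun p := (p.2, p.2⁻¹ * p.1)
  invFun p := (p.1 * p.2, p.1)
  left_inv p := by
    ext
    · simp
    · rfl
  right_inv p := by
    ext
    · rfl
    · simp

lemma p089_conv_summable {G : Type*} [Group G] (a b : G → ℂ)
    (ha : Summable fun x => ‖a x‖) (hb : Summable fun x => ‖b x‖) :
    Summable (fun p : G × G => a p.2 * b (p.2⁻¹ * p.1)) := by
  have h : Summable (fun p : G × G => a p.1 * b p.2) := summable_mul_of_summable_norm ha hb
  exact ((p089_shear G).summable_iff).2 h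

lemma p089_conv_tsum {G : Type*} [Group G] (a b : G → ℂ)
    (ha : Summable fun x => ‖a x‖) (hb : Summable fun x => ‖b x‖) :
    Summable (fun x => ∑' y, a y * b (y⁻¹ * x)) ∧
      ∑' x, ∑' y, a y * b (y⁻¹ * x) = (∑' y, a y) * (∑' z, b z) := by
  have hF := p089_conv_summable a b ha hb
  refine ⟨hF.prod, ?_⟩
  have h1 : ∑' x, ∑' y, a y * b (y⁻¹ * x) = ∑' p : G × G, a p.2 * b (p.2⁻¹ * p.1) :=
    (hF.tsum_prod).symm
  have h2 : ∑' p : G × G, a p.2 * b (p.2⁻¹ * p.1) = ∑' p : G × G, a p.1 * b p.2 :=
    (p089_shear G).tsum_eq (fun p : G × G => a p.1 * b p.2)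
  rw [h1, h2, tsum_mul_tsum_of_summable_norm ha hb]

theorem aug_trace_nat {G : Type*} [Group G] (q : ℕ) (e : Fin q → Fin q → G → ℂ)
    (he : ∀ i j, Summable fun x => ‖e i j x‖)
    (hidem : ∀ i j x, ∑ l, ∑' y, e i l y * e l j (y⁻¹ * x) = e i j x) :
    ∃ n : ℕ, n ≤ q ∧ ∑ i, ∑' x, e i i x = (n : ℂ) := by
  classical
  obtain ⟨A, hA⟩ : ∃ A : Matrix (Fin q) (Fin q) ℂ, A = Matrix.of fun i j => ∑' x, e i j x :=
    ⟨_, rfl⟩
  have hAij : ∀ i j, A i j = ∑' x, e i j x := by
    intro i j
    rw [hA]
    rfl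
  have hmul : A * A = A := by
    ext i j
    rw [Matrix.mul_apply, hAij i j]
    have h1 : ∑' x, e i j x = ∑' x, ∑ l, ∑' y, e i l y * e l j (y⁻¹ * x) :=
      tsum_congr fun x => (hidem i j x).symm
    rw [h1, Summable.tsum_finsetSum
      (fun l _ => (p089_conv_tsum (e i l) (e l j) (he i l) (he l j)).1)]
    refine Finset.sum_congr rfl fun l _ => ?_
    rw [(p089_conv_tsum (e i l) (e l j) (he i l) (he l j)).2, hAij, hAij]
  obtain ⟨f, hf⟩ : ∃ f : (Fin q → ℂ) →ₗ[ℂ] (Fin q → ℂ), f = Matrix.toLin' A := ⟨_, rfl⟩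
  have hidemf : IsIdempotentElem f := by
    show f * f = f
    rw [hf, Module.End.mul_eq_comp, ← Matrix.toLin'_mul, hmul]
  have htr := ((LinearMap.isProj_range_iff_isIdempotentElem f).2 hidemf).trace
  refine ⟨Module.finrank ℂ (LinearMap.range f), ?_, ?_⟩
  · have h := Submodule.finrank_le (LinearMap.range f)
    rwa [Module.finrank_fin_fun] at h
  · rw [← htr, hf, Matrix.trace_toLin'_eq]
    simp only [Matrix.trace, Matrix.diag_apply, hAij]

theorem complement_idem {G : Type*} [Group G] (e : G → ℂ) (he : Summable fun x => ‖e x‖)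
    (hidem : ∀ x, ∑' y, e y * e (y⁻¹ * x) = e x) (d : G → ℂ)
    (hd1 : d 1 = 1 - e 1) (hd : ∀ x, x ≠ 1 → d x = -e x) :
    Summable (fun x => ‖d x‖) ∧ ∀ x, ∑' y, d y * d (y⁻¹ * x) = d x := by
  classical
  obtain ⟨u, hu⟩ : ∃ u : G → ℂ, u = fun x => if x = 1 then 1 else 0 := ⟨_, rfl⟩
  have hu1 : u 1 = 1 := by
    rw [hu]
    exact if_pos rfl
  have hu0 : ∀ x, x ≠ 1 → u x = 0 := by
    intro x hx
    rw [hu]
    exact if_neg hx
  have hdu : ∀ x, d x = u x - e x := by
    intro x
    by_cases hx : x = 1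
    · rw [hx, hd1, hu1]
    · rw [hd x hx, hu0 x hx, zero_sub]
  have husum : Summable fun x => ‖u x‖ := by
    apply summable_of_ne_finset_zero (s := {1})
    intro x hx
    rw [hu0 x (by simpa using hx), norm_zero]
  constructor
  · refine Summable.of_nonneg_of_le (fun x => norm_nonneg _) (fun x => ?_) (husum.add he)
    rw [hdu x]
    exact norm_sub_le _ _
  · intro x
    have hC : ∀ z, ‖e z‖ ≤ ∑' w, ‖e w‖ := fun z => he.le_tsum z (fun w _ => norm_nonneg _)
    have h4s : Summable fun y => e y * e (y⁻¹ * x) := by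
      refine Summable.of_norm_bounded (g := fun y => ‖e y‖ * ∑' w, ‖e w‖) (he.mul_right _)
        (fun y => ?_)
      rw [norm_mul]
      exact mul_le_mul_of_nonneg_left (hC _) (norm_nonneg _)
    have h1 : HasSum (fun y => u y * u (y⁻¹ * x)) (u x) := by
      have hfun : (fun y => u y * u (y⁻¹ * x)) = fun y => if y = 1 then u x else 0 := by
        funext y
        by_cases hy : y = 1
        · rw [if_pos hy, hy, hu1, inv_one, one_mul, one_mul]
        · rw [if_neg hy, hu0 y hy, zero_mul]
      rw [hfun]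
      exact hasSum_ite_eq 1 (u x)
    have h2 : HasSum (fun y => u y * e (y⁻¹ * x)) (e x) := by
      have hfun : (fun y => u y * e (y⁻¹ * x)) = fun y => if y = 1 then e x else 0 := by
        funext y
        by_cases hy : y = 1
        · rw [if_pos hy, hy, hu1, inv_one, one_mul, one_mul]
        · rw [if_neg hy, hu0 y hy, zero_mul]
      rw [hfun]
      exact hasSum_ite_eq 1 (e x)
    have h3 : HasSum (fun y => e y * u (y⁻¹ * x)) (e x) := by
      have hfun : (fun y => e y * u (y⁻¹ * x)) = fun y => if y = x then e x else 0 := by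
        funext y
        by_cases hy : y = x
        · rw [if_pos hy, hy, inv_mul_cancel, hu1, mul_one]
        · rw [if_neg hy, hu0 (y⁻¹ * x) (fun h => hy (inv_mul_eq_one.1 h)), mul_zero]
      rw [hfun]
      exact hasSum_ite_eq x (e x)
    have h4 : HasSum (fun y => e y * e (y⁻¹ * x)) (e x) := by
      rw [← hidem x]
      exact h4s.hasSum
    have hall : HasSum (fun y => d y * d (y⁻¹ * x)) (u x - e x - e x + e x) := by
      have hfun : (fun y => d y * d (y⁻¹ * x)) = fun y => u y * u (y⁻¹ * x) - u y * e (y⁻¹ * x)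
          - e y * u (y⁻¹ * x) + e y * e (y⁻¹ * x) := by
        funext y
        rw [hdu y, hdu (y⁻¹ * x)]
        ring
      rw [hfun]
      exact ((h1.sub h2).sub h3).add h4
    rw [hall.tsum_eq, hdu x]
    ring

end Vale.Agent.Lib.P089
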