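import Mathlib

/-!
# Regrouping an absolutely convergent sum over a group by conjugacy classes

If `f : G → ℂ` is absolutely summable and the sum of `f` over every conjugacy class other than
the class of the identity vanishes, then the total sum of `f` is `f 1`.
-/

namespace Vale.Agent.Lib.P089

open scoped BigOperators

/-- The fibre of `ConjClasses.mk` over the class of `g` is the set of conjugates of `g`. -/
noncomputable def p089_fibreEquiv {G : Type*} [Group G] (g : G) :
    {y : G // ConjClasses.mk y = ConjClasses.mk g} ≃ {c : G // IsConj g c} :=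
  Equiv.subtypeEquivRight fun c => by
    rw [ConjClasses.mk_eq_mk_iff_isConj]
    exact ⟨fun hc => hc.symm, fun hc => hc.symm⟩

lemma p089_inner_zero {G : Type*} [Group G] (f : G → ℂ) (g : G)
    (h : HasSum (fun c : {c : G // IsConj g c} => f c.1) 0) :
    ∑' y : {y : G // ConjClasses.mk y = ConjClasses.mk g}, f y.1 = 0 := by
  have h1 : ∑' y : {y : G // ConjClasses.mk y = ConjClasses.mk g}, f y.1
      = ∑' c : {c : G // IsConj g c}, f c.1 :=
    (p089_fibreEquiv g).tsum_eq (fun c : {c : G // IsConj g c} => f c.1)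
  rw [h1]
  exact h.tsum_eq

lemma p089_inner_one {G : Type*} [Group G] (f : G → ℂ) :
    ∑' y : {y : G // ConjClasses.mk y = ConjClasses.mk (1 : G)}, f y.1 = f 1 := by
  have h1 : ∑' y : {y : G // ConjClasses.mk y = ConjClasses.mk (1 : G)}, f y.1
      = f (⟨1, rfl⟩ : {y : G // ConjClasses.mk y = ConjClasses.mk (1 : G)}).1 := by
    refine tsum_eq_single
      (⟨1, rfl⟩ : {y : G // ConjClasses.mk y = ConjClasses.mk (1 : G)}) ?_
    intro y hy
    exfalso
    apply hy
    have hc : IsConj y.1 1 := ConjClasses.mk_eq_mk_iff_isConj.mp y.2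
    exact Subtype.ext (isConj_one_left.mp hc)
  exact h1

theorem tsum_eq_of_class_sums_zero {G : Type*} [Group G] (f : G → ℂ)
    (hf : Summable fun x => ‖f x‖)
    (h : ∀ g : G, g ≠ 1 → HasSum (fun c : {c : G // IsConj g c} => f c.1) 0) :
    ∑' x, f x = f 1 := by
  classical
  have hs : Summable f := Summable.of_norm hf
  have h1 : ∑' p : (Σ C : ConjClasses G, {g : G // ConjClasses.mk g = C}),
      f (Equiv.sigmaFiberEquiv (ConjClasses.mk : G → ConjClasses G) p) = ∑' x, f x :=
    (Equiv.sigmaFiberEquiv (ConjClasses.mk : G → ConjClasses G)).tsum_eq f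
  have hs' : Summable fun p : (Σ C : ConjClasses G, {g : G // ConjClasses.mk g = C}) =>
      f (Equiv.sigmaFiberEquiv (ConjClasses.mk : G → ConjClasses G) p) :=
    (Equiv.sigmaFiberEquiv (ConjClasses.mk : G → ConjClasses G)).summable_iff.mpr hs
  rw [← h1, hs'.tsum_sigma]
  have h2 : ∀ C : ConjClasses G, C ≠ ConjClasses.mk 1 →
      ∑' y : {g : G // ConjClasses.mk g = C},
        f (Equiv.sigmaFiberEquiv (ConjClasses.mk : G → ConjClasses G) ⟨C, y⟩) = 0 := by
    intro C hC
    obtain ⟨g, rfl⟩ := ConjClasses.mk_surjective C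
    have hg : g ≠ 1 := by
      rintro rfl
      exact hC rfl
    exact p089_inner_zero f g (h g hg)
  rw [tsum_eq_single (ConjClasses.mk 1) h2]
  exact p089_inner_one f

end Vale.Agent.Lib.P089
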