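import Vale.Agent.Lib.P089.L2Shift

namespace Vale.Agent.Lib.P089

open scoped BigOperators ENNReal

/-- A closed shift invariant subspace: invariance of the closed span of the right shifts of a
vector under a right shift. -/
theorem p089_shift_mem {G : Type*} [Group G] (E : lp (fun _ : G => ℂ) 2) (x : G)
    (ξ : lp (fun _ : G => ℂ) 2)
    (hξ : ξ ∈ (Submodule.span ℂ (Set.range fun y : G => rshift y E)).topologicalClosure) :
    rshift x ξ ∈ (Submodule.span ℂ (Set.range fun y : G => rshift y E)).topologicalClosure := by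
  set V : Submodule ℂ (lp (fun _ : G => ℂ) 2) :=
    (Submodule.span ℂ (Set.range fun y : G => rshift y E)).topologicalClosure with hV
  have hle : (Submodule.span ℂ (Set.range fun y : G => rshift y E)).topologicalClosure
      ≤ V.comap ((rshift x).toLinearEquiv : lp (fun _ : G => ℂ) 2 →ₗ[ℂ] lp (fun _ : G => ℂ) 2) := by
    apply Submodule.topologicalClosure_minimal
    · rw [Submodule.span_le]
      rintro _ ⟨y, rfl⟩
      change rshift x (rshift y E) ∈ V
      have h : rshift x (rshift y E) = rshift (x * y) E := by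
        ext z
        simp only [rshift_apply, mul_assoc]
      rw [h]
      exact Submodule.le_topologicalClosure _ (Submodule.subset_span ⟨x * y, rfl⟩)
    · have hc : IsClosed (V : Set (lp (fun _ : G => ℂ) 2)) :=
        Submodule.isClosed_topologicalClosure _
      exact hc.preimage (rshift x).continuous
  exact hle hξ

theorem kaplansky_l1 {G : Type*} [Group G] (e : G → ℂ) (he : Summable fun x => ‖e x‖)
    (hidem : ∀ x, ∑' y, e y * e (y⁻¹ * x) = e x) (h1 : e 1 = 0) : ∀ x, e x = 0 := by
  classical
  set E : lp (fun _ : G => ℂ) 2 := ⟨e, memlp_two_of_summable e he⟩ with hE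
  have hEapp : ∀ y : G, E y = e y := fun _ => rfl
  set D : lp (fun _ : G => ℂ) 2 := lp.single 2 (1 : G) (1 : ℂ) with hD
  have hDinner : ∀ ξ : lp (fun _ : G => ℂ) 2, inner ℂ D ξ = ξ 1 := by
    intro ξ
    rw [hD, lp.inner_single_left]
    simp
  set V : Submodule ℂ (lp (fun _ : G => ℂ) 2) :=
    (Submodule.span ℂ (Set.range fun y : G => rshift y E)).topologicalClosure with hV
  have hVclosed : IsClosed (V : Set (lp (fun _ : G => ℂ) 2)) :=
    Submodule.isClosed_topologicalClosure _
  have hgen : ∀ y : G, rshift y E ∈ V := fun y =>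
    Submodule.le_topologicalClosure _ (Submodule.subset_span ⟨y, rfl⟩)
  have hinv : ∀ (x : G) (ξ : lp (fun _ : G => ℂ) 2), ξ ∈ V → rshift x ξ ∈ V :=
    fun x ξ hξ => p089_shift_mem E x ξ hξ
  have hsymm : ∀ (x : G) (ξ : lp (fun _ : G => ℂ) 2), (rshift x).symm ξ = rshift x⁻¹ ξ := by
    intro x ξ
    ext y
    rw [rshift_symm_apply, rshift_apply]
  -- step (1): the projection of D to V
  obtain ⟨f, hfV, hfmin⟩ :=
    Submodule.exists_norm_eq_iInf_of_complete_subspace V hVclosed.isComplete D
  have horth : ∀ η ∈ V, inner ℂ (D - f) η = 0 :=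
    (Submodule.norm_eq_iInf_iff_inner_eq_zero V hfV).1 hfmin
  -- step (3): the convolution functional agrees with evaluation at the identity on V
  obtain ⟨φ, hφ⟩ := exists_conv_functional e he
  have hφV : ∀ ξ ∈ V, φ ξ = ξ 1 := by
    have hle : (Submodule.span ℂ (Set.range fun y : G => rshift y E)).topologicalClosure
        ≤ LinearMap.eqLocus (φ : lp (fun _ : G => ℂ) 2 →ₗ[ℂ] ℂ)
            ((innerSL ℂ D : lp (fun _ : G => ℂ) 2 →L[ℂ] ℂ) : lp (fun _ : G => ℂ) 2 →ₗ[ℂ] ℂ) := by
      apply Submodule.topologicalClosure_minimal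
      · rw [Submodule.span_le]
        rintro _ ⟨y, rfl⟩
        change φ (rshift y E) = innerSL ℂ D (rshift y E)
        rw [innerSL_apply_apply, hDinner, hφ, rshift_apply, hEapp, one_mul, ← hidem y]
        refine tsum_congr fun x => ?_
        rw [rshift_apply, hEapp]
      · exact isClosed_eq φ.continuous (innerSL ℂ D).continuous
    intro ξ hξ
    have h := hle hξ
    have h' : φ ξ = innerSL ℂ D ξ := h
    rw [h', innerSL_apply_apply, hDinner]
  -- step (4)
  have hA : ∀ x : G, f x⁻¹ = inner ℂ f ((rshift x).symm f) := by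
    intro x
    have h0 : inner ℂ D ((rshift x).symm f) = f x⁻¹ := by
      rw [hDinner, rshift_symm_apply, one_mul]
    have hmem : (rshift x).symm f ∈ V := by
      rw [hsymm]
      exact hinv _ _ hfV
    have h2 := horth _ hmem
    rw [inner_sub_left, sub_eq_zero] at h2
    rw [← h0, h2]
  have hB : ∀ x : G, f x = inner ℂ f (rshift x f) := by
    intro x
    have h := hA x⁻¹
    rw [inv_inv, hsymm, inv_inv] at h
    exact h
  have hstar : ∀ x : G, f x⁻¹ = star (f x) := by
    intro x
    rw [hA x, hB x, ← LinearIsometryEquiv.inner_map_eq_flip]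
    exact (inner_conj_symm (𝕜 := ℂ) (rshift x f) f).symm
  -- step (5)
  have hEV : E ∈ V := by
    have h : rshift 1 E = E := by
      ext y
      rw [rshift_apply, mul_one]
    rw [← h]
    exact hgen 1
  have hff : inner ℂ f f = e 1 := by
    have h3 : inner ℂ D E = inner ℂ f E := by
      have h2 := horth E hEV
      rw [inner_sub_left, sub_eq_zero] at h2
      exact h2
    have h4 : inner ℂ f E = φ f := by
      rw [hφ, lp.inner_eq_tsum]
      refine tsum_congr fun x => ?_
      rw [hstar x, hEapp]
      simp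
    have h5 : inner ℂ D f = inner ℂ f f := by
      have h2 := horth f hfV
      rw [inner_sub_left, sub_eq_zero] at h2
      exact h2
    rw [← h5, hDinner, ← hφV f hfV, ← h4, ← h3, hDinner, hEapp]
  -- step (6)
  have hf0 : f = 0 := by
    rw [h1] at hff
    exact inner_self_eq_zero.mp hff
  intro x
  have h2 := horth _ (hgen x)
  rw [hf0, sub_zero, hDinner, rshift_apply, one_mul, hEapp] at h2
  exact h2

end Vale.Agent.Lib.P089
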