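import Mathlib

namespace Vale.Agent.Lib.P089

open scoped BigOperators ENNReal

variable {G : Type*} [Group G]

/-- Shifting a square summable function on the right keeps it square summable. -/
theorem p089_memlp_shift (x : G) (ξ : lp (fun _ : G => ℂ) 2) :
    Memℓp (fun y : G => (ξ : G → ℂ) (y * x)) 2 := by
  have h := lp.memℓp ξ
  have h2 : (0 : ℝ) < (2 : ℝ≥0∞).toReal := by norm_num
  rw [memℓp_gen_iff h2] at h ⊢
  exact (Equiv.mulRight x).summable_iff.mpr h

/-- The right shift as a linear map. -/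
noncomputable def p089_shiftLin (x : G) :
    lp (fun _ : G => ℂ) 2 →ₗ[ℂ] lp (fun _ : G => ℂ) 2 where
  toFun ξ := ⟨fun y => (ξ : G → ℂ) (y * x), p089_memlp_shift x ξ⟩
  map_add' ξ η := by
    ext y
    rfl
  map_smul' c ξ := by
    ext y
    rfl

theorem p089_shiftLin_apply (x : G) (ξ : lp (fun _ : G => ℂ) 2) (y : G) :
    p089_shiftLin x ξ y = ξ (y * x) := rfl

theorem p089_norm_shiftLin (x : G) (ξ : lp (fun _ : G => ℂ) 2) :
    ‖p089_shiftLin x ξ‖ = ‖ξ‖ := by
  have h2 : (0 : ℝ) < (2 : ℝ≥0∞).toReal := by norm_num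
  rw [lp.norm_eq_tsum_rpow h2, lp.norm_eq_tsum_rpow h2]
  congr 1
  exact (Equiv.mulRight x).tsum_eq (fun i => ‖(ξ : G → ℂ) i‖ ^ (2 : ℝ≥0∞).toReal)

/-- The right shift `ξ ↦ (y ↦ ξ (y * x))` as a linear isometric equivalence. -/
noncomputable def rshift (x : G) : lp (fun _ : G => ℂ) 2 ≃ₗᵢ[ℂ] lp (fun _ : G => ℂ) 2 where
  toLinearEquiv :=
    { toFun := p089_shiftLin x
      map_add' := (p089_shiftLin x).map_add
      map_smul' := (p089_shiftLin x).map_smul
      invFun := p089_shiftLin x⁻¹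
      left_inv := fun ξ => by
        ext y
        simp [p089_shiftLin_apply, mul_assoc]
      right_inv := fun ξ => by
        ext y
        simp [p089_shiftLin_apply, mul_assoc] }
  norm_map' := p089_norm_shiftLin x

theorem rshift_apply (x : G) (ξ : lp (fun _ : G => ℂ) 2) (y : G) :
    rshift x ξ y = ξ (y * x) := rfl

theorem rshift_symm_apply (x : G) (ξ : lp (fun _ : G => ℂ) 2) (y : G) :
    (rshift x).symm ξ y = ξ (y * x⁻¹) := rfl

omit [Group G] in
theorem memlp_two_of_summable (e : G → ℂ) (he : Summable fun x => ‖e x‖) : Memℓp e 2 := by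
  have h1 : Memℓp e 1 := by
    have h : (0 : ℝ) < (1 : ℝ≥0∞).toReal := by norm_num
    rw [memℓp_gen_iff h]
    simpa using he
  exact h1.of_exponent_ge (by norm_num)

theorem exists_conv_functional (e : G → ℂ) (he : Summable fun x => ‖e x‖) :
    ∃ φ : lp (fun _ : G => ℂ) 2 →L[ℂ] ℂ,
      ∀ ξ : lp (fun _ : G => ℂ) 2, φ ξ = ∑' x, e x * ξ x⁻¹ := by
  have ht : Memℓp (fun x : G => star (e x⁻¹)) 2 := by
    apply memlp_two_of_summable
    simp only [norm_star]
    exact (Equiv.inv G).summable_iff.mpr he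
  refine ⟨innerSL ℂ (⟨fun x => star (e x⁻¹), ht⟩ : lp (fun _ : G => ℂ) 2), fun ξ => ?_⟩
  rw [innerSL_apply_apply, lp.inner_eq_tsum]
  rw [← (Equiv.inv G).tsum_eq (fun x => e x * (ξ : G → ℂ) x⁻¹)]
  refine tsum_congr fun x => ?_
  simp [mul_comm]

end Vale.Agent.Lib.P089
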