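import Vale.Agent.Lib.P089.Kaplansky
import Vale.Agent.Lib.P089.ClassSum
import Vale.Agent.Lib.P089.Augmentation

/-!
# Integrality of the canonical trace and absence of idempotents for torsion-free groups

For a torsion-free group in which the traces of an idempotent matrix of absolutely summable
functions vanish at all conjugacy classes outside a finite set of classes of elements of finite
order, the value of the canonical trace of the matrix is a natural number; and an absolutely
summable idempotent function is zero or the unit.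
-/

namespace Vale.Agent.Lib.P089

open scoped BigOperators

/-- The canonical trace of an idempotent matrix is a natural number. -/
theorem trace_nat_of_class_vanishing {G : Type*} [Group G]
    (htf : ∀ g : G, IsOfFinOrder g → g = 1)
    (q : ℕ) (e : Fin q → Fin q → G → ℂ)
    (he_sum : ∀ i j, Summable (fun x => ‖e i j x‖))
    (he_idem : ∀ i j x, ∑ l, ∑' y, e i l y * e l j (y⁻¹ * x) = e i j x)
    (hb : ∃ F : Finset (ConjClasses G), (∀ g : G, ConjClasses.mk g ∈ F → IsOfFinOrder g) ∧
      ∀ g : G, ConjClasses.mk g ∉ F →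
        HasSum (fun c : {c : G // IsConj g c} => ∑ i, e i i c.1) 0) :
    ∃ n : ℕ, n ≤ q ∧ ∑ i, e i i 1 = (n : ℂ) := by
  obtain ⟨F, hF, hvan⟩ := hb
  obtain ⟨n, hn, hsum⟩ := aug_trace_nat q e he_sum he_idem
  refine ⟨n, hn, ?_⟩
  have hf : Summable (fun x => ‖∑ i, e i i x‖) := by
    refine Summable.of_nonneg_of_le (fun x => norm_nonneg _) (fun x => norm_sum_le _ _) ?_
    exact summable_sum (fun i _ => he_sum i i)
  have hcls : ∀ g : G, g ≠ 1 →
      HasSum (fun c : {c : G // IsConj g c} => ∑ i, e i i c.1) 0 := by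
    intro g hg
    refine hvan g (fun hmem => hg (htf g (hF g hmem)))
  have h1 := tsum_eq_of_class_sums_zero (fun x => ∑ i, e i i x) hf hcls
  have h2 : ∑' x, ∑ i, e i i x = ∑ i, ∑' x, e i i x :=
    Summable.tsum_finsetSum (fun i _ => (he_sum i i).of_norm)
  rw [← h1, h2, hsum]

/-- An absolutely summable idempotent is zero or the unit. -/
theorem idem_of_trace_nat {G : Type*} [Group G]
    (hb : ∀ d : G → ℂ, Summable (fun x => ‖d x‖) →
      (∀ x, ∑' y, d y * d (y⁻¹ * x) = d x) → ∃ n : ℕ, n ≤ 1 ∧ d 1 = (n : ℂ))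
    (e : G → ℂ) (he : Summable (fun x => ‖e x‖))
    (hidem : ∀ x, ∑' y, e y * e (y⁻¹ * x) = e x) :
    (∀ x, e x = 0) ∨ (e 1 = 1 ∧ ∀ x, x ≠ 1 → e x = 0) := by
  classical
  obtain ⟨n, hn, h1⟩ := hb e he hidem
  interval_cases n
  · left
    exact kaplansky_l1 e he hidem (by simpa using h1)
  · right
    obtain ⟨d, hd⟩ : ∃ d : G → ℂ, d = fun x => (if x = 1 then 1 else 0) - e x := ⟨_, rfl⟩
    have hd1 : d 1 = 1 - e 1 := by rw [hd]; simp
    have hdx : ∀ x, x ≠ 1 → d x = -e x := by
      intro x hx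
      rw [hd]
      simp [hx]
    obtain ⟨hds, hdi⟩ := complement_idem e he hidem d hd1 hdx
    have hz := kaplansky_l1 d hds hdi (by rw [hd1, h1]; simp)
    refine ⟨by simpa using h1, fun x hx => ?_⟩
    have := hz x
    rw [hdx x hx] at this
    exact neg_eq_zero.mp this

/-- The same, from integrality of the canonical trace of one by one matrices. -/
theorem idem_of_matrix_trace_nat {G : Type*} [Group G]
    (hb : ∀ e : Fin 1 → Fin 1 → G → ℂ, (∀ i j, Summable (fun x => ‖e i j x‖)) →
      (∀ i j x, ∑ l, ∑' y, e i l y * e l j (y⁻¹ * x) = e i j x) →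
      ∃ n : ℕ, n ≤ 1 ∧ ∑ i, e i i 1 = (n : ℂ))
    (e : G → ℂ) (he : Summable (fun x => ‖e x‖))
    (hidem : ∀ x, ∑' y, e y * e (y⁻¹ * x) = e x) :
    (∀ x, e x = 0) ∨ (e 1 = 1 ∧ ∀ x, x ≠ 1 → e x = 0) := by
  refine idem_of_trace_nat (fun d hd hdi => ?_) e he hidem
  obtain ⟨n, hn, h⟩ := hb (fun _ _ => d) (fun _ _ => hd) (fun _ _ x => by simpa using hdi x)
  exact ⟨n, hn, by simpa using h⟩

end Vale.Agent.Lib.P089
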